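import Vale.Agent.P159.T1.S.H711.HvP
import Vale.Agent.P159.T1.S.H568.LocC

/-!
P159: below the critical point the variance of the dual height is at most the value at the
critical point at the scale of the correlation length.
-/

open Filter Topology

namespace Vale.Agent.P159.T1.S.H897

open Vale.Agent.P159 Vale.Agent.P159.T1.D Vale.Agent.P159.T1.S.Hv
open Vale.Agent.P159.T1.H315 (Cv)

variable {b b' : ℝ} {U : Finset Z2}

/-- the variance increases with the inverse temperature -/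
theorem V_mono_b (hb : 0 ≤ b) (hbb : b ≤ b') (U : Finset Z2) (ρ : Z2 → ℝ) :
    V b U ρ ≤ V b' U ρ := by
  rw [V_eq_lft, V_eq_lft, H910.Vr_eq, H910.Vr_eq]
  exact H910.FF_mono_sq (fun _ => hb) (fun _ => hbb) H910.bd_side (Finset.Subset.refl U) _

theorem v2_mono_b (hb : 0 ≤ b) (hbb : b ≤ b') {f g : Z2} (hf : f ∈ U) (hg : g ∈ U) :
    v2 b U f g ≤ v2 b' U f g := by
  rw [v2_eq hf hg, v2_eq hf hg]
  exact V_mono_b hb hbb U _

/-- the covariance of two heights on a horizontal line -/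
theorem cov_le (hb : 0 < b) (hm : 0 < mass b) {w : ℕ} {x : Z2} {N : ℕ}
    (hx : x ∈ H568.rc w w) (ha : (x.1 + N, x.2) ∈ H568.rc w w) :
    Cv b (H568.rc w w) (dl x) (dl (x.1 + N, x.2)) ≤
      b ^ 2 * (Real.exp (-(2 * mass b * N)) * (1 / (1 - Real.exp (-(2 * mass b)))) ^ 2) := by
  obtain ⟨i, t⟩ := x
  have h1 : Cv b (H568.rc w w) (dl (i, t)) (dl (i + N, t)) =
      E b (H568.rc w w) fun h => (h (i, t) : ℝ) * (h (i + N, t) : ℝ) := by
    unfold Cv D.E
    congr 1
    refine tsum_congr fun h => ?_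
    simp only
    rw [ch_dl hx, ch_dl ha]
  have h2 := (le_abs_self _).trans
    (Loc.cov_exp hb hm (x := i) (y := i + N) (t := t) (by omega) hx ha)
  simp only
  rw [h1]
  refine h2.trans ?_
  have h3 : Real.exp (-(2 * mass b * (((i + N : ℤ) : ℝ) - i + 1))) ≤
      Real.exp (-(2 * mass b * N)) := by
    refine Real.exp_le_exp.2 ?_
    push_cast
    nlinarith
  have h4 : (1 / (1 - Real.exp (-(2 * mass b)))) ^ 2 =
      1 / (1 - Real.exp (-(2 * mass b))) ^ 2 := by
    rw [div_pow, one_pow]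
  have h5 : 0 ≤ 1 / (1 - Real.exp (-(2 * mass b))) ^ 2 := by positivity
  rw [h4, div_eq_mul_one_div, ← mul_assoc, pow_two b]
  exact mul_le_mul_of_nonneg_right (mul_le_mul_of_nonneg_left h3 (by positivity)) h5

lemma hv_pair (hb : 0 ≤ b) {x a : Z2} (hx : x ∈ U) (ha : a ∈ U) :
    hv b U x + hv b U a = v2 b U x a + 2 * Cv b U (dl x) (dl a) := by
  rw [hv_eq hx, hv_eq ha, v2_eq hx ha, V_sub hb]
  ring

/-- every finite set of faces lies in a translated rectangle, together with its shift -/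
lemma exists_rc (U : Finset Z2) (N : ℕ) : ∃ (u : Z2) (w : ℕ),
    ∀ f ∈ U, f + u ∈ H568.rc w w ∧ f + (u + ((N : ℤ), 0)) ∈ H568.rc w w := by
  obtain ⟨M, hM⟩ : ∃ M : ℕ, ∀ f ∈ U, f.1.natAbs ≤ M ∧ f.2.natAbs ≤ M :=
    ⟨U.sup fun f => max f.1.natAbs f.2.natAbs, fun f hf => by
      have h := Finset.le_sup (f := fun f : Z2 => max f.1.natAbs f.2.natAbs) hf
      exact ⟨(le_max_left _ _).trans h, (le_max_right _ _).trans h⟩⟩
  refine ⟨((M : ℤ), (M : ℤ)), 2 * M + 1 + N, fun f hf => ?_⟩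
  obtain ⟨h1, h2⟩ := hM f hf
  unfold H568.rc
  simp only [Finset.mem_product, Finset.mem_Ico, Prod.fst_add, Prod.snd_add]
  omega

/-- two translates of a domain in one rectangle -/
theorem two_hv (hb : 0 ≤ b) {x : Z2} (hx : x ∈ U) (N : ℕ) : ∃ (w : ℕ) (y : Z2),
    y ∈ H568.rc w w ∧ (y.1 + N, y.2) ∈ H568.rc w w ∧
      2 * hv b U x ≤ hv b (H568.rc w w) y + hv b (H568.rc w w) (y.1 + N, y.2) := by
  obtain ⟨u, w, h⟩ := exists_rc U N
  have h1 := hv_symm (H910.isSym_tr u) b U x
  have h2 := hv_symm (H910.isSym_tr (u + ((N : ℤ), 0))) b U x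
  have e1 : (H910.trF u) x = x + u := by simp [H910.trF]
  have e2 : (H910.trF (u + ((N : ℤ), 0))) x = ((x + u).1 + N, (x + u).2) := by
    simp [H910.trF, Prod.ext_iff, add_assoc]
  rw [e1] at h1
  rw [e2] at h2
  have s1 : U.map (H910.trF u).toEmbedding ⊆ H568.rc w w := by
    intro f hf
    rw [Finset.mem_map] at hf
    obtain ⟨g, hg, rfl⟩ := hf
    have := (h g hg).1
    simpa [H910.trF] using this
  have s2 : U.map (H910.trF (u + ((N : ℤ), 0))).toEmbedding ⊆ H568.rc w w := by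
    intro f hf
    rw [Finset.mem_map] at hf
    obtain ⟨g, hg, rfl⟩ := hf
    have := (h g hg).2
    rw [← add_assoc] at this
    simpa [H910.trF, ← add_assoc] using this
  have h3 := hv_mono hb s1 (x + u)
  have h4 := hv_mono hb s2 ((x + u).1 + N, (x + u).2)
  have h5 := (h x hx).2
  have e5 : x + (u + ((N : ℤ), 0)) = ((x + u).1 + N, (x + u).2) := by
    simp [Prod.ext_iff, add_assoc]
  rw [e5] at h5
  refine ⟨w, x + u, (h x hx).1, h5, ?_⟩
  linarith

lemma log_max {ξ : ℝ} (hξ : 0 < ξ) : Real.log (max 1 ξ) = max 0 (Real.log ξ) := by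
  rcases le_total 1 ξ with h | h
  · rw [max_eq_right h, max_eq_right (Real.log_nonneg h)]
  · rw [max_eq_left h, Real.log_one, max_eq_left (Real.log_nonpos hξ.le h)]

/-- the covariance at the distance `2 X (1 + log X)`, `X = max 1 ξ` -/
theorem cov_bd (hb : 0 < b) (hbb : b < bCrit) {w : ℕ} {x : Z2} {N : ℕ}
    (hx : x ∈ H568.rc w w) (ha : (x.1 + N, x.2) ∈ H568.rc w w)
    (hN : 2 * max 1 (corrLength b) * (1 + Real.log (max 1 (corrLength b))) ≤ N) :
    Cv b (H568.rc w w) (dl x) (dl (x.1 + N, x.2)) ≤ 4 * bCrit ^ 2 := by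
  have hm := XY.mass_pos_of_lt_bCrit hb hbb
  refine (cov_le hb hm hx ha).trans ?_
  set X : ℝ := max 1 (corrLength b) with hX
  have hX1 : 1 ≤ X := le_max_left _ _
  have hX0 : 0 < X := by linarith
  have hmX : 1 / X ≤ mass b := by
    have h1 : corrLength b ≤ X := le_max_right _ _
    unfold corrLength at h1
    rw [div_le_iff₀ hm] at h1
    rw [div_le_iff₀ hX0]
    linarith
  have hlog : 0 ≤ Real.log X := Real.log_nonneg hX1
  have h1 : Real.exp (-(2 * mass b * N)) ≤ 1 / X ^ 4 := by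
    have h2 : 4 * Real.log X ≤ 2 * mass b * N := by
      have h3 : 4 * (1 + Real.log X) ≤ 2 * (1 / X) * N := by
        have h4 : 2 * (1 / X) * (2 * X * (1 + Real.log X)) ≤ 2 * (1 / X) * N :=
          mul_le_mul_of_nonneg_left hN (by positivity)
        have h5 : 2 * (1 / X) * (2 * X * (1 + Real.log X)) = 4 * (1 + Real.log X) := by
          field_simp
          ring
        linarith
      have h6 : 2 * (1 / X) * (N : ℝ) ≤ 2 * mass b * N := by
        have : (0 : ℝ) ≤ N := Nat.cast_nonneg _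
        nlinarith
      linarith
    have h7 : 1 / X ^ 4 = Real.exp (-(4 * Real.log X)) := by
      rw [Real.exp_neg, one_div]
      congr 1
      rw [mul_comm, Real.exp_mul, Real.exp_log hX0]
      norm_cast
    rw [h7]
    exact Real.exp_le_exp.2 (by linarith)
  have h2 : 1 / (1 - Real.exp (-(2 * mass b))) ≤ 2 * X := by
    have h3 : 2 * mass b / (1 + 2 * mass b) ≤ 1 - Real.exp (-(2 * mass b)) := by
      have h4 := Real.add_one_le_exp (2 * mass b)
      have h5 : Real.exp (-(2 * mass b)) ≤ 1 / (1 + 2 * mass b) := by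
        rw [Real.exp_neg, one_div]
        exact inv_anti₀ (by linarith) (by linarith)
      have h6 : 2 * mass b / (1 + 2 * mass b) = 1 - 1 / (1 + 2 * mass b) := by
        field_simp
        ring
      linarith
    have h4 : 0 < 2 * mass b / (1 + 2 * mass b) := by positivity
    refine (one_div_le_one_div_of_le h4 h3).trans ?_
    rw [one_div_div, div_le_iff₀ (by positivity)]
    have h5 : 1 ≤ mass b * X := by
      rw [div_le_iff₀ hX0] at hmX
      exact hmX
    nlinarith
  have h3 : 0 ≤ 1 / (1 - Real.exp (-(2 * mass b))) := by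
    have h4 : Real.exp (-(2 * mass b)) < 1 := by
      rw [Real.exp_lt_one_iff]
      linarith
    exact one_div_nonneg.2 (by linarith)
  have h4 : (1 / (1 - Real.exp (-(2 * mass b)))) ^ 2 ≤ (2 * X) ^ 2 := pow_le_pow_left₀ h3 h2 2
  have h5 : Real.exp (-(2 * mass b * N)) * (1 / (1 - Real.exp (-(2 * mass b)))) ^ 2 ≤
      1 / X ^ 4 * (2 * X) ^ 2 := mul_le_mul h1 h4 (by positivity) (by positivity)
  have h6 : 1 / X ^ 4 * (2 * X) ^ 2 ≤ 4 := by
    rw [div_mul_eq_mul_div, div_le_iff₀ (by positivity)]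
    have h7 : X ^ 2 ≤ X ^ 4 := pow_le_pow_right₀ hX1 (by norm_num)
    nlinarith
  have h7 : b ^ 2 ≤ bCrit ^ 2 := pow_le_pow_left₀ hb.le hbb.le 2
  calc b ^ 2 * (Real.exp (-(2 * mass b * N)) * (1 / (1 - Real.exp (-(2 * mass b)))) ^ 2)
      ≤ bCrit ^ 2 * 4 := mul_le_mul h7 (h5.trans h6) (by positivity) (by positivity)
    _ = 4 * bCrit ^ 2 := by ring

/-- **localization below the critical point, with the constant of the critical point** -/
theorem loc_sharp (ε : ℝ) (hε : 0 < ε) : ∃ K : ℝ, ∀ b : ℝ, 0 < b → b < bCrit → ∀ (U : Finset Z2) (x : Z2),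
      hv b U x ≤ (helicity bCrit / (2 * Real.pi) + ε) * max 0 (Real.log (corrLength b)) + K := by
  have hpi := Real.pi_pos
  have hY : 0 ≤ helicity bCrit :=
    le_trans (by positivity) H170.hel_bCrit_ge
  set A : ℝ := helicity bCrit / Real.pi + ε / 2 with hA
  have hA0 : 0 < A := by
    have : 0 ≤ helicity bCrit / Real.pi := by positivity
    linarith
  set δ : ℝ := ε / (A + 1 + ε) with hδ
  have hden : 0 < A + 1 + ε := by linarith
  have hδ0 : 0 < δ := by positivity
  have hδA : A * δ ≤ ε := by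
    rw [hδ, mul_div_assoc', div_le_iff₀ hden]
    nlinarith
  obtain ⟨C, hC⟩ := upper2 bCrit le_rfl (ε / 2) (by positivity)
  set Cδ : ℝ := Real.log 3 + δ - 1 - Real.log δ with hCδ
  refine ⟨max 0 ((A * Cδ + C + 8 * bCrit ^ 2) / 2), fun b hb hbb U x => ?_⟩
  have hm := XY.mass_pos_of_lt_bCrit hb hbb
  have hξ : 0 < corrLength b := by
    unfold corrLength
    positivity
  have hl0 : 0 ≤ max 0 (Real.log (corrLength b)) := le_max_left _ _
  have hR0 : 0 ≤ (helicity bCrit / (2 * Real.pi) + ε) * max 0 (Real.log (corrLength b)) :=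
    mul_nonneg (by positivity) hl0
  by_cases hx : x ∈ U
  swap
  · rw [hv_off hx]
    exact add_nonneg hR0 (le_max_left _ _)
  set X : ℝ := max 1 (corrLength b) with hX
  have hX1 : 1 ≤ X := le_max_left _ _
  have hX0 : 0 < X := by linarith
  have hlogX : Real.log X = max 0 (Real.log (corrLength b)) := log_max hξ
  have hlog : 0 ≤ Real.log X := Real.log_nonneg hX1
  obtain ⟨N, hN⟩ : ∃ N : ℕ, N = ⌈2 * X * (1 + Real.log X)⌉₊ := ⟨_, rfl⟩
  have hN1 : 2 * X * (1 + Real.log X) ≤ N := by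
    rw [hN]
    exact Nat.le_ceil _
  have hbig : 2 ≤ 2 * X * (1 + Real.log X) := by nlinarith
  have hN2 : (N : ℝ) ≤ 3 * X * (1 + Real.log X) := by
    have h1 := Nat.ceil_lt_add_one (a := 2 * X * (1 + Real.log X)) (by linarith)
    rw [← hN] at h1
    nlinarith
  have hN0 : (2 : ℝ) ≤ N := hbig.trans hN1
  have hNn : N ≠ 0 := by
    rintro rfl
    norm_num at hN0
  obtain ⟨w, y, hy, ha, h2⟩ := two_hv (b := b) hb.le hx N
  rw [hv_pair hb.le hy ha] at h2
  have hne : y ≠ (y.1 + N, y.2) := by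
    intro h
    have := congrArg Prod.fst h
    simp only at this
    omega
  have h3 : v2 b (H568.rc w w) y (y.1 + N, y.2) ≤ A * Real.log N + C := by
    refine (v2_mono_b hb.le hbb.le hy ha).trans ?_
    have h4 := hC y (y.1 + N, y.2) hne _ hy ha
    have e : dd y (y.1 + N, y.2) = N := by
      unfold dd
      simp
    rwa [e] at h4
  have h4 := cov_bd hb hbb hy ha hN1
  have h5 : Real.log N ≤ (1 + δ) * Real.log X + Cδ := by
    have h6 : Real.log N ≤ Real.log (3 * X * (1 + Real.log X)) :=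
      Real.log_le_log (by linarith) hN2
    rw [Real.log_mul (by positivity) (by positivity), Real.log_mul (by norm_num) hX0.ne'] at h6
    have h7 : Real.log (1 + Real.log X) ≤ δ * (1 + Real.log X) - 1 - Real.log δ := by
      have h8 := Real.log_le_sub_one_of_pos (x := δ * (1 + Real.log X)) (by positivity)
      rw [Real.log_mul hδ0.ne' (by positivity)] at h8
      linarith
    rw [hCδ]
    linarith
  have h6 : A * Real.log N ≤ A * ((1 + δ) * Real.log X + Cδ) :=
    mul_le_mul_of_nonneg_left h5 hA0.le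
  have h7 : A * δ * Real.log X ≤ ε * Real.log X := mul_le_mul_of_nonneg_right hδA hlog
  have h8 : (A * Cδ + C + 8 * bCrit ^ 2) / 2 ≤ max 0 ((A * Cδ + C + 8 * bCrit ^ 2) / 2) :=
    le_max_right _ _
  have h9 : (helicity bCrit / (2 * Real.pi) + ε) * Real.log X =
      (A * Real.log X + (3 * ε / 2) * Real.log X) / 2 := by
    rw [hA]
    field_simp
    ring
  rw [← hlogX, h9]
  nlinarith

/-- the same in elementary terms -/
theorem loc_sharp' (ε : ℝ) (hε : 0 < ε) : ∃ K : ℝ, ∀ b : ℝ, 0 < b → b < bCrit →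
    ∀ (U : Finset (ℤ × ℤ)) (x : ℤ × ℤ), hMean b U (fun h => (h x : ℝ) ^ 2) ≤
      (helicity bCrit / (2 * Real.pi) + ε) * max 0 (Real.log (corrLength b)) + K := by
  obtain ⟨K, hK⟩ := loc_sharp ε hε
  refine ⟨K, fun b hb hbb U x => ?_⟩
  rw [hMean_eq hb.le]
  exact hK b hb hbb U x

end Vale.Agent.P159.T1.S.H897
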