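import Vale.Agent.P159.T1.S.H711.RHd

/-!
P159: the Gaussian law of the height differences.
-/

open Filter Topology

namespace Vale.Agent.P159.T1.S.Hv

open Vale.Agent.P159 Vale.Agent.P159.T1.D
open Vale.Agent.P159.T1.H910 (dv mem_bd)

variable {b : ℝ} {U : Finset Z2}

lemma ch_pair {f g : Z2} (hf : f ∈ U) (hg : g ∈ U) (z : ℝ) (h : Z2 → ℤ) :
    ch U (fun x => z * (dl f x - dl g x)) h = z * ((h f : ℝ) - h g) := by
  have e : ch U (fun x => z * (dl f x - dl g x)) h = z * (ch U (dl f) h - ch U (dl g) h) := by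
    unfold ch
    rw [← Finset.sum_sub_distrib, Finset.mul_sum]
    exact Finset.sum_congr rfl fun x _ => by ring
  rw [e, ch_dl hf, ch_dl hg]

/-- exponential moment of the height difference -/
noncomputable def mg (b : ℝ) (U : Finset Z2) (z : ℝ) (f g : Z2) : ℝ :=
  E b U fun h => Real.exp (z * ((h f : ℝ) - h g))

lemma mg_eq {f g : Z2} (hf : f ∈ U) (hg : g ∈ U) (b z : ℝ) :
    mg b U z f g = Zρ b U (fun x => z * (dl f x - dl g x)) / Z b U := by
  unfold mg D.E Zρ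
  simp only [ch_pair hf hg]

lemma isDiv_smul {B : Bnd → ℝ} {ρ : Z2 → ℝ} (h : IsDiv U B ρ) (z : ℝ) :
    IsDiv U (fun e => z * B e) (fun x => z * ρ x) := by
  intro f hf
  have h1 := h f hf
  simp only
  rw [← h1]
  ring

lemma Vr_smul' (b : ℝ) (U : Finset Z2) (z : ℝ) (B : Bnd → ℝ) :
    Vr b U (fun e => z * B e) = z ^ 2 * Vr b U B := by
  have h1 : ∀ h : Z2 → ℤ, pr U (fun e => z * B e) 0 h = z * pr U B 0 h := by
    intro h
    unfold pr
    rw [Finset.mul_sum]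
    exact Finset.sum_congr rfl fun e _ => by ring
  unfold Vr D.E
  simp only [h1]
  rw [← mul_div_assoc, ← tsum_mul_left]
  congr 1
  exact tsum_congr fun h => by ring

lemma osc_smul (l : ℕ) (S : Finset Bnd) (z : ℝ) (B : Bnd → ℝ) :
    osc l S (fun e => z * B e) = z ^ 2 * osc l S B := by
  unfold osc
  rw [Finset.mul_sum]
  refine Finset.sum_congr rfl fun e _ => ?_
  rw [Finset.mul_sum]
  exact Finset.sum_congr rfl fun u _ => by ring

lemma Ba_abs (e : Bnd) : |Ba e| ≤ 10 := by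
  have h1 := Ba_sq' e
  have h2 := sP_ge e.1
  have h3 : 196 / sP e.1 ≤ 100 := by
    rw [div_le_iff₀ (by linarith)]
    linarith
  refine abs_le_of_sq_le_sq ?_ (by norm_num) |> fun h => h
  linarith

lemma Bg_abs (N : ℕ) (g : Z2) (e : Bnd) : |Bg N g e| ≤ 4 := by
  have hp := Real.pi_gt_three
  have h1 : |Dg g e| ≤ 20 := by
    unfold Dg
    have h2 := abs_sub (Ba e) (Ba (sh (-g) e))
    have h3 := Ba_abs e
    have h4 := Ba_abs (sh (-g) e)
    linarith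
  have h5 : |ch0 N e.1| ≤ 1 := by
    rw [abs_of_nonneg (ch0_nonneg _ _)]
    exact ch0_le _ _
  unfold Bg
  rw [abs_div, abs_mul, abs_of_pos (by positivity : 0 < 2 * Real.pi), div_le_iff₀ (by positivity)]
  have h6 : |ch0 N e.1| * |Dg g e| ≤ 1 * 20 :=
    mul_le_mul h5 h1 (abs_nonneg _) zero_le_one
  linarith

open H910 in
theorem mg_symm {σ : Z2 ≃ Z2} {τ : Bnd ≃ Bnd} (hs : IsSym σ τ) (b : ℝ) (U : Finset Z2) (z : ℝ)
    (x y : Z2) : mg b (U.map σ.toEmbedding) z (σ x) (σ y) = mg b U z x y := by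
  unfold mg
  rw [E_eq, E_eq, hs.bd, FF_symm hs, FF_symm hs]
  congr 1
  refine FF_congr fun h => ?_
  simp

lemma exists_N (U : Finset Z2) (n : ℕ) : ∃ N : ℕ, U ⊆ bx 0 N ∧ n ≤ N := by
  refine ⟨(U.sup fun x => max x.1.natAbs x.2.natAbs) + n, fun x hx => ?_, by omega⟩
  have h1 : max x.1.natAbs x.2.natAbs ≤ U.sup fun x => max x.1.natAbs x.2.natAbs :=
    Finset.le_sup (f := fun x : Z2 => max x.1.natAbs x.2.natAbs) hx
  rw [mem_bx0]
  have h2 := le_max_left x.1.natAbs x.2.natAbs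
  have h3 := le_max_right x.1.natAbs x.2.natAbs
  omega

/-- the exponential moment is at least the Gaussian one -/
theorem mg_low0 (hb : 0 ≤ b) (z : ℝ) {g : Z2} (h0 : 0 ∈ U) (hg : g ∈ U) :
    Real.exp (z ^ 2 * (v2 b U 0 g / 2)) ≤ mg b U z 0 g := by
  obtain ⟨N, hUN, -⟩ := exists_N U 0
  have h1 := H910.exp_Vr_le_div hb (isDiv_smul (Bg_isDiv hUN g) z)
  rw [Vr_smul', Vr_of_div (Bg_isDiv hUN g), ← v2_eq h0 hg, mul_div_assoc] at h1
  rw [mg_eq h0 hg]
  exact h1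

theorem mg_low (hb : 0 ≤ b) (z : ℝ) {f g : Z2} (hf : f ∈ U) (hg : g ∈ U) :
    Real.exp (z ^ 2 * (v2 b U f g / 2)) ≤ mg b U z f g := by
  have h := v2_symm (H910.isSym_tr (-f)) b U f g
  have h' := mg_symm (H910.isSym_tr (-f)) b U z f g
  have e1 : (H910.trF (-f)) f = 0 := by simp [H910.trF]
  rw [e1] at h h'
  rw [← h, ← h']
  exact mg_low0 hb z (by rw [← e1]; exact Finset.mem_map_of_mem _ hf)
    (Finset.mem_map_of_mem _ hg)

/-- **upper bound, one of the faces is `0`** -/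
theorem mg_up0 (b : ℝ) (hb : bCrit ≤ b) (ε : ℝ) (hε : 0 < ε) : ∃ η C : ℝ, 0 < η ∧ ∀ z : ℝ,
    |z| ≤ η → ∀ g : Z2, g ≠ 0 → ∀ U : Finset Z2, 0 ∈ U → g ∈ U →
      mg b U z 0 g ≤ Real.exp (z ^ 2 * ((helicity b / (2 * Real.pi) + ε) *
        Real.log (dd 0 g) + C)) := by
  have hY := T1.H934.pos_of_ge b hb
  have hb0 : 0 < b := hY.1
  have hp := Real.pi_pos
  have hY0 : 0 < helicity b := lt_of_lt_of_le (by positivity) hY.2
  obtain ⟨l, η, C, hη, hC, H⟩ := stmtU b ε hb0 hε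
  obtain ⟨A, hA⟩ : ∃ A : ℝ, A = helicity b + ε := ⟨_, rfl⟩
  rw [← hA] at H
  have hA0 : 0 < A := by rw [hA]; positivity
  obtain ⟨δ, hδdef⟩ : ∃ δ : ℝ, δ = min 1 (ε / (3 * A)) := ⟨_, rfl⟩
  have hδ : 0 < δ := by rw [hδdef]; exact lt_min one_pos (by positivity)
  have hδ1 : δ ≤ 1 := by rw [hδdef]; exact min_le_left _ _
  have hδ2 : A * (3 * δ) ≤ ε := by
    have h : δ ≤ ε / (3 * A) := by rw [hδdef]; exact min_le_right _ _
    rw [le_div_iff₀ (by positivity)] at h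
    linarith
  have hAδ : A * (1 + δ) ^ 2 ≤ helicity b + 2 * ε := by
    have h1 : (1 + δ) ^ 2 ≤ 1 + 3 * δ := by nlinarith
    have h2 := mul_le_mul_of_nonneg_left h1 hA0.le
    nlinarith
  obtain ⟨R, hR⟩ : ∃ R : ℝ, R = (1 / (4 * Real.pi ^ 2)) *
      (2 * ((1 + δ) * ((1 + δ) * (2 * Real.pi * Real.log 3 +
      (4 * Real.pi + 32)) + (1 + 1 / δ) * 1152) + (1 + 1 / δ) * 6272) + 161700) := ⟨_, rfl⟩
  refine ⟨η / 4, A / 2 * R + C * ((2 * (l : ℝ) + 1) ^ 2 * (16 * Dl2 l)), by positivity,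
    fun z hz g hg U h0 hgU => ?_⟩
  obtain ⟨n, hn⟩ : ∃ n, dd 0 g = n := ⟨_, rfl⟩
  have hn1 : 1 ≤ n := by
    by_contra h
    have h0 : dd 0 g = 0 := by omega
    unfold dd at h0
    rw [Nat.max_eq_zero_iff] at h0
    simp only [Prod.fst_zero, Prod.snd_zero, zero_sub, Int.natAbs_neg, Int.natAbs_eq_zero] at h0
    exact hg (Prod.ext h0.1 h0.2)
  have hn' : (1 : ℝ) ≤ n := by exact_mod_cast hn1
  obtain ⟨N, hUN, hnN⟩ := exists_N U n
  have hZ : 0 < Z b U := H910.Z_pos hb0.le U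
  have hz2 : 0 ≤ z ^ 2 := sq_nonneg z
  rw [hn, mg_eq h0 hgU, div_le_iff₀ hZ, ← H910.ZB_eq_Zρ (isDiv_smul (Bg_isDiv hUN g) z)]
  have h2 := H U (SP (2 * N)) 0 (fun e => z * Bg N g e)
    (fun e he => by rw [Bg_off he, mul_zero])
    (fun e => by
      rw [abs_mul]
      have h3 := mul_le_mul hz (Bg_abs N g e) (abs_nonneg _) (by positivity : 0 ≤ η / 4)
      linarith)
  refine h2.trans (mul_le_mul_of_nonneg_right (Real.exp_le_exp.2 ?_) hZ.le)
  rw [osc_smul]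
  have e0 : ∑ e ∈ SP (2 * N), (z * Bg N g e) ^ 2 = z ^ 2 * ∑ e ∈ SP (2 * N), Bg N g e ^ 2 := by
    rw [Finset.mul_sum]
    exact Finset.sum_congr rfl fun e _ => by ring
  rw [e0]
  have h3 := mul_le_mul_of_nonneg_left (Bg_energy hn1 hn hδ N) (by positivity : 0 ≤ A / 2)
  have h4 := mul_le_mul_of_nonneg_left (Bg_osc hn hnN l) hC.le
  have h5 : Real.log (2 * n + 1) ≤ Real.log 3 + Real.log n := by
    rw [← Real.log_mul (by norm_num) (by positivity)]
    exact Real.log_le_log (by positivity) (by linarith)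
  have h6 : A / 2 * ((1 / (4 * Real.pi ^ 2)) *
      (2 * ((1 + δ) * ((1 + δ) * (2 * Real.pi * Real.log (2 * n + 1) +
      (4 * Real.pi + 32)) + (1 + 1 / δ) * 1152) + (1 + 1 / δ) * 6272) + 161700)) ≤
      A / 2 * ((1 / (4 * Real.pi ^ 2)) *
      (2 * ((1 + δ) * ((1 + δ) * (2 * Real.pi * (Real.log 3 + Real.log n) +
      (4 * Real.pi + 32)) + (1 + 1 / δ) * 1152) + (1 + 1 / δ) * 6272) + 161700)) := by gcongr
  have e : A / 2 * ((1 / (4 * Real.pi ^ 2)) *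
      (2 * ((1 + δ) * ((1 + δ) * (2 * Real.pi * (Real.log 3 + Real.log n) +
      (4 * Real.pi + 32)) + (1 + 1 / δ) * 1152) + (1 + 1 / δ) * 6272) + 161700)) =
      A * (1 + δ) ^ 2 * (1 / (2 * Real.pi)) * Real.log n + A / 2 * R := by
    rw [hR]
    field_simp
    ring
  have h7 : A * (1 + δ) ^ 2 * (1 / (2 * Real.pi)) * Real.log n ≤
      (helicity b / (2 * Real.pi) + ε) * Real.log n := by
    refine mul_le_mul_of_nonneg_right ?_ (Real.log_nonneg hn')
    have h8 : A * (1 + δ) ^ 2 * (1 / (2 * Real.pi)) ≤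
        (helicity b + 2 * ε) * (1 / (2 * Real.pi)) :=
      mul_le_mul_of_nonneg_right hAδ (by positivity)
    have h9 : (helicity b + 2 * ε) * (1 / (2 * Real.pi)) =
        helicity b / (2 * Real.pi) + ε * (1 / Real.pi) := by field_simp
    have h10 : 1 / Real.pi ≤ 1 := by
      rw [div_le_one hp]; linarith [Real.pi_gt_three]
    nlinarith
  have h8 : A / 2 * ∑ e ∈ SP (2 * N), Bg N g e ^ 2 + C * osc l (SP (2 * N)) (Bg N g) ≤
      (helicity b / (2 * Real.pi) + ε) * Real.log n +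
        (A / 2 * R + C * ((2 * (l : ℝ) + 1) ^ 2 * (16 * Dl2 l))) := by linarith
  calc A / 2 * (z ^ 2 * ∑ e ∈ SP (2 * N), Bg N g e ^ 2) +
        C * (z ^ 2 * osc l (SP (2 * N)) (Bg N g)) =
        z ^ 2 * (A / 2 * ∑ e ∈ SP (2 * N), Bg N g e ^ 2 + C * osc l (SP (2 * N)) (Bg N g)) := by
        ring
    _ ≤ _ := mul_le_mul_of_nonneg_left h8 hz2

/-- **upper bound of the exponential moment of the height difference** -/
theorem mg_up (b : ℝ) (hb : bCrit ≤ b) (ε : ℝ) (hε : 0 < ε) : ∃ η C : ℝ, 0 < η ∧ ∀ z : ℝ,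
    |z| ≤ η → ∀ f g : Z2, f ≠ g → ∀ U : Finset Z2, f ∈ U → g ∈ U →
      mg b U z f g ≤ Real.exp (z ^ 2 * ((helicity b / (2 * Real.pi) + ε) *
        Real.log (dd f g) + C)) := by
  obtain ⟨η, C, hη, hC⟩ := mg_up0 b hb ε hε
  refine ⟨η, C, hη, fun z hz f g hfg U hf hg => ?_⟩
  have h := mg_symm (H910.isSym_tr (-f)) b U z f g
  have e1 : (H910.trF (-f)) f = 0 := by simp [H910.trF]
  have e2 : (H910.trF (-f)) g = g - f := by simp [H910.trF, sub_eq_add_neg]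
  rw [e1, e2] at h
  have e3 : dd 0 (g - f) = dd f g := by
    unfold dd
    simp only [Prod.fst_zero, Prod.snd_zero, Prod.fst_sub, Prod.snd_sub]
    congr 1 <;> congr 1 <;> ring
  have h1 := hC z hz (g - f) (sub_ne_zero.2 hfg.symm) (U.map (H910.trF (-f)).toEmbedding)
    (by rw [← e1]; exact Finset.mem_map_of_mem _ hf)
    (by rw [← e2]; exact Finset.mem_map_of_mem _ hg)
  rw [h, e3] at h1
  exact h1

/-- **The Gaussian law of the height differences**, uniformly in the domain -/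
theorem diff_gauss (b : ℝ) (hb : bCrit ≤ b) (ε : ℝ) (hε : 0 < ε) : ∃ η C : ℝ, 0 < η ∧
    ∀ z : ℝ, |z| ≤ η → ∀ x y : ℤ × ℤ, x ≠ y → ∀ U : Finset (ℤ × ℤ),
      (∀ u : ℤ × ℤ, 2 * max |(u - x).1| |(u - x).2| ≤ max |(x - y).1| |(x - y).2| ∨
        2 * max |(u - y).1| |(u - y).2| ≤ max |(x - y).1| |(x - y).2| → u ∈ U) →
      |Real.log (hMean b U fun h => Real.exp (z * ((h x : ℝ) - h y))) -
        helicity b / (2 * Real.pi) * z ^ 2 *
          Real.log ((max |(x - y).1| |(x - y).2| : ℤ) : ℝ)| ≤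
        z ^ 2 * (ε * Real.log ((max |(x - y).1| |(x - y).2| : ℤ) : ℝ) + C) := by
  have hb0 : 0 < b := (T1.H934.pos_of_ge b hb).1
  obtain ⟨C1, hC1⟩ := height_diff2 b hb ε hε
  obtain ⟨η, C2, hη, hC2⟩ := mg_up b hb ε hε
  refine ⟨η, max (C1 / 2) C2, hη, fun z hz x y hxy U hU => ?_⟩
  have hd' := dd_cast x y
  have hd : ((max |(x - y).1| |(x - y).2| : ℤ) : ℝ) = (dd x y : ℝ) := by
    rw [hd', Int.cast_natCast]
  have key : ∀ w : ℤ × ℤ, (∀ u : ℤ × ℤ, 2 * max |(u - w).1| |(u - w).2| ≤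
      max |(x - y).1| |(x - y).2| → u ∈ U) → bx w (dd x y / 2) ⊆ U := by
    intro w hw u hu
    refine hw u ?_
    rw [mem_bx] at hu
    rw [hd']
    simp only [Prod.fst_sub, Prod.snd_sub]
    have h1 : |u.1 - w.1| ≤ ((dd x y / 2 : ℕ) : ℤ) := abs_le.2 hu.1
    have h2 : |u.2 - w.2| ≤ ((dd x y / 2 : ℕ) : ℤ) := abs_le.2 hu.2
    have h3 : max |u.1 - w.1| |u.2 - w.2| ≤ ((dd x y / 2 : ℕ) : ℤ) := max_le h1 h2
    omega
  have hx := key x fun u hu => hU u (Or.inl hu)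
  have hy := key y fun u hu => hU u (Or.inr hu)
  have hxU : x ∈ U := hx (by rw [mem_bx]; omega)
  have hyU : y ∈ U := hy (by rw [mem_bx]; omega)
  have a1 := (abs_le.1 (hC1 x y hxy U hx hy)).1
  have a2 := hC2 z hz x y hxy U hxU hyU
  have a3 := mg_low hb0.le z hxU hyU (b := b)
  rw [hd, hMean_eq hb0.le]
  change |Real.log (mg b U z x y) - _| ≤ _
  have hpos : 0 < mg b U z x y := (Real.exp_pos _).trans_le a3
  have b1 := (Real.le_log_iff_exp_le hpos).2 a3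
  have b2 := (Real.log_le_iff_le_exp hpos).2 a2
  have hz2 : 0 ≤ z ^ 2 := sq_nonneg z
  have m1 : C1 / 2 ≤ max (C1 / 2) C2 := le_max_left _ _
  have m2 : C2 ≤ max (C1 / 2) C2 := le_max_right _ _
  have hd1 : (1 : ℝ) ≤ dd x y := by
    have : dd x y ≠ 0 := by
      intro h0
      apply hxy
      unfold dd at h0
      rw [Nat.max_eq_zero_iff] at h0
      exact Prod.ext (by omega) (by omega)
    exact_mod_cast Nat.one_le_iff_ne_zero.2 this
  have hlog : 0 ≤ Real.log (dd x y) := Real.log_nonneg hd1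
  have hεl : 0 ≤ ε * Real.log (dd x y) := mul_nonneg hε.le hlog
  have e1 : helicity b / Real.pi = 2 * (helicity b / (2 * Real.pi)) := by field_simp
  rw [e1] at a1
  rw [abs_le]
  constructor
  · have h1 : z ^ 2 * (helicity b / (2 * Real.pi) * Real.log (dd x y) -
        (ε * Real.log (dd x y) + max (C1 / 2) C2)) ≤ z ^ 2 * (v2 b U x y / 2) :=
      mul_le_mul_of_nonneg_left (by linarith) hz2
    have h2 : z ^ 2 * (helicity b / (2 * Real.pi) * Real.log (dd x y) -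
        (ε * Real.log (dd x y) + max (C1 / 2) C2)) = helicity b / (2 * Real.pi) * z ^ 2 *
        Real.log (dd x y) - z ^ 2 * (ε * Real.log (dd x y) + max (C1 / 2) C2) := by ring
    linarith
  · have h1 : z ^ 2 * ((helicity b / (2 * Real.pi) + ε) * Real.log (dd x y) + C2) ≤
        z ^ 2 * ((helicity b / (2 * Real.pi) + ε) * Real.log (dd x y) + max (C1 / 2) C2) :=
      mul_le_mul_of_nonneg_left (by linarith) hz2
    have h2 : z ^ 2 * ((helicity b / (2 * Real.pi) + ε) * Real.log (dd x y) + max (C1 / 2) C2) =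
        helicity b / (2 * Real.pi) * z ^ 2 * Real.log (dd x y) +
        z ^ 2 * (ε * Real.log (dd x y) + max (C1 / 2) C2) := by ring
    linarith

end Vale.Agent.P159.T1.S.Hv
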