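import Vale.Agent.P159.T1.S.H897.RHf

/-!
P159: the central limit theorem for the height differences.
-/

open Filter Topology

namespace Vale.Agent.P159.T1.S.Hv

open Vale.Agent.P159 Vale.Agent.P159.T1.D

/-- from the logarithm to the value -/
lemma exp_close {M c δ : ℝ} (hM : 0 < M) (hδ : 0 < δ)
    (h : |Real.log M - c| ≤ Real.log (1 + δ * Real.exp (-c))) : |M - Real.exp c| ≤ δ := by
  have h0 : 0 < δ * Real.exp (-c) := by positivity
  have h1 : 0 < 1 + δ * Real.exp (-c) := by linarith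
  obtain ⟨ha, hb⟩ := abs_le.1 h
  have hc : Real.exp c * Real.exp (-c) = 1 := by rw [← Real.exp_add, add_neg_cancel, Real.exp_zero]
  have hec := Real.exp_pos c
  have up : M ≤ Real.exp c + δ := by
    have h2 : Real.log M ≤ c + Real.log (1 + δ * Real.exp (-c)) := by linarith
    have h3 := (Real.log_le_iff_le_exp hM).1 h2
    rw [Real.exp_add, Real.exp_log h1] at h3
    have e : Real.exp c * (1 + δ * Real.exp (-c)) = Real.exp c + δ * (Real.exp c * Real.exp (-c)) := by
      ring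
    rw [e, hc, mul_one] at h3
    exact h3
  have lo : Real.exp c - δ ≤ M := by
    have h2 : c - Real.log (1 + δ * Real.exp (-c)) ≤ Real.log M := by linarith
    have h3 := (Real.le_log_iff_exp_le hM).1 h2
    rw [Real.exp_sub, Real.exp_log h1] at h3
    refine le_trans ?_ h3
    rw [le_div_iff₀ h1]
    have e : (Real.exp c - δ) * (1 + δ * Real.exp (-c)) =
        Real.exp c + δ * (Real.exp c * Real.exp (-c)) - δ - δ * (δ * Real.exp (-c)) := by ring
    rw [e, hc]
    have h4 : 0 < δ * (δ * Real.exp (-c)) := by positivity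
    linarith
  rw [abs_le]
  constructor <;> linarith

/-- **Central limit theorem for the height differences**, uniformly in the domain: for every real
`t` the exponential moment of `t (h(x) - h(y)) / √ (log d)` tends to the Gaussian one. -/
theorem diff_clt (b : ℝ) (hb : bCrit ≤ b) (t δ : ℝ) (hδ : 0 < δ) : ∃ D : ℕ,
    ∀ x y : ℤ × ℤ, (D : ℤ) ≤ max |(x - y).1| |(x - y).2| → ∀ U : Finset (ℤ × ℤ),
      (∀ u : ℤ × ℤ, 2 * max |(u - x).1| |(u - x).2| ≤ max |(x - y).1| |(x - y).2| ∨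
        2 * max |(u - y).1| |(u - y).2| ≤ max |(x - y).1| |(x - y).2| → u ∈ U) →
      |hMean b U (fun h => Real.exp (t /
          √(Real.log ((max |(x - y).1| |(x - y).2| : ℤ) : ℝ)) * ((h x : ℝ) - h y))) -
        Real.exp (t ^ 2 * (helicity b / (2 * Real.pi)))| ≤ δ := by
  have hb0 : 0 < b := (T1.H934.pos_of_ge b hb).1
  obtain ⟨c, hc⟩ : ∃ c : ℝ, c = t ^ 2 * (helicity b / (2 * Real.pi)) := ⟨_, rfl⟩
  obtain ⟨κ, hκ⟩ : ∃ κ : ℝ, κ = Real.log (1 + δ * Real.exp (-c)) := ⟨_, rfl⟩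
  have hκ0 : 0 < κ := by
    rw [hκ]
    exact Real.log_pos (by have : 0 < δ * Real.exp (-c) := by positivity
                           linarith)
  obtain ⟨ε, hε⟩ : ∃ ε : ℝ, ε = κ / (2 * (t ^ 2 + 1)) := ⟨_, rfl⟩
  have hε0 : 0 < ε := by rw [hε]; positivity
  obtain ⟨η, C, hη, H⟩ := diff_gauss b hb ε hε0
  -- the logarithm of the distance is large
  obtain ⟨L, hL⟩ : ∃ L : ℝ, L = max 1 (max ((t / η) ^ 2) (|C| / ε)) := ⟨_, rfl⟩
  have hL1 : 1 ≤ L := by rw [hL]; exact le_max_left _ _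
  have hL2 : (t / η) ^ 2 ≤ L := by rw [hL]; exact (le_max_left _ _).trans (le_max_right _ _)
  have hL3 : |C| / ε ≤ L := by rw [hL]; exact (le_max_right _ _).trans (le_max_right _ _)
  refine ⟨⌈Real.exp L⌉₊, fun x y hxy U hU => ?_⟩
  obtain ⟨d, hd⟩ : ∃ d : ℝ, d = ((max |(x - y).1| |(x - y).2| : ℤ) : ℝ) := ⟨_, rfl⟩
  have hdL : Real.exp L ≤ d := by
    have h1 : Real.exp L ≤ ⌈Real.exp L⌉₊ := Nat.le_ceil _
    have h2 : ((⌈Real.exp L⌉₊ : ℤ) : ℝ) ≤ d := by rw [hd]; exact_mod_cast hxy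
    push_cast at h2
    linarith
  have hd0 : 0 < d := (Real.exp_pos _).trans_le hdL
  have hl : L ≤ Real.log d := (Real.le_log_iff_exp_le hd0).2 hdL
  have hne : x ≠ y := by
    rintro rfl
    have h1 : d = 0 := by rw [hd]; simp
    linarith
  rw [← hd]
  obtain ⟨l, hld⟩ : ∃ l : ℝ, l = Real.log d := ⟨_, rfl⟩
  rw [← hld] at hl ⊢
  have hl0 : 0 < l := by linarith
  have hs : 0 < √l := Real.sqrt_pos.2 hl0
  have hs2 : √l ^ 2 = l := Real.sq_sqrt hl0.le
  have hz : |t / √l| ≤ η := by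
    rw [abs_div, abs_of_pos hs, div_le_iff₀ hs]
    refine abs_le_of_sq_le_sq ?_ (by positivity) |> fun h => h
    rw [mul_pow, hs2]
    have h1 : (t / η) ^ 2 ≤ l := hL2.trans hl
    rw [div_pow, div_le_iff₀ (by positivity)] at h1
    linarith
  have h := H (t / √l) hz x y hne U hU
  rw [← hd, ← hld] at h
  have hz2 : (t / √l) ^ 2 = t ^ 2 / l := by rw [div_pow, hs2]
  rw [hz2] at h
  have e1 : helicity b / (2 * Real.pi) * (t ^ 2 / l) * l = c := by
    rw [hc]
    field_simp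
  rw [e1] at h
  rw [← hc]
  refine exp_close ?_ hδ (h.trans ?_)
  · -- positivity
    have hx : x ∈ U := hU x (Or.inl (by simp))
    have hy : y ∈ U := hU y (Or.inr (by simp))
    rw [hMean_eq hb0.le]
    exact (Real.exp_pos _).trans_le (mg_low hb0.le (t / √l) hx hy)
  · rw [← hκ]
    have h1 : C ≤ ε * l := by
      have h2 : |C| / ε ≤ l := hL3.trans hl
      rw [div_le_iff₀ hε0] at h2
      have := le_abs_self C
      linarith
    have h3 : t ^ 2 / l * (ε * l + C) ≤ t ^ 2 / l * (2 * (ε * l)) :=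
      mul_le_mul_of_nonneg_left (by linarith) (by positivity)
    refine h3.trans ?_
    have e2 : t ^ 2 / l * (2 * (ε * l)) = t ^ 2 * (2 * ε) := by field_simp
    rw [e2, hε]
    have e3 : t ^ 2 * (2 * (κ / (2 * (t ^ 2 + 1)))) = κ * (t ^ 2 / (t ^ 2 + 1)) := by
      field_simp
    rw [e3]
    have h4 : t ^ 2 / (t ^ 2 + 1) ≤ 1 := by
      rw [div_le_one (by positivity)]
      linarith
    calc κ * (t ^ 2 / (t ^ 2 + 1)) ≤ κ * 1 := mul_le_mul_of_nonneg_left h4 hκ0.le
      _ = κ := mul_one κ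

end Vale.Agent.P159.T1.S.Hv
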